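import Vale.Agent.P224.R2.H614.ChkU
import Vale.Agent.P224.R2.H614.CA.Rows
import Vale.Agent.P224.R2.H614.CA.El
import Vale.Agent.P224.R2.H614.CA.G0
import Vale.Agent.P224.R2.H614.CA.G1
import Vale.Agent.P224.R2.H614.CA.G2
import Vale.Agent.P224.R2.H614.CA.G3

/-!
The identity of the certificate in dimension 2 and the positivity of its left side.
-/

namespace Vale.Agent.P224.R2.H614.CA

open Vale.Agent.P224.UE Vale.Agent.P224.POS Vale.Agent.P224.PO
open scoped RealInnerProductSpace

noncomputable section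

/-- the blocks -/
def B1 : List BlkG := [⟨els0, G0⟩, ⟨els1, G1⟩, ⟨els2, G2⟩, ⟨els3, G3⟩]

/-- the integers replacing the first four variables -/
def Ms : List Nat := [
  Nat.add (Nat.pow 2 67) 1090297408444377839,
  Nat.add (Nat.pow 2 980) 672893673074899541,
  Nat.add (Nat.pow 2 5206) 494586791774247929,
  Nat.add (Nat.pow 2 26336) 946030352018653745]

set_option maxRecDepth 100000 in
/-- the entries are bounded -/
theorem idG : allB 1207322772 [(.c 1, B1)] = true := by decide +kernel

set_option maxRecDepth 100000 in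
/-- the bounds -/
theorem idB : bchkN (bndU 8 1207322772 P [(.c 1, B1)]) Ms [] = true := by decide +kernel

set_option maxRecDepth 100000 in
/-- **The identity**, checked by the kernel. -/
theorem idM : HP.zero (PE.hp (env Ms)
    (PE.sub (PE.sb sbU P) (PE.mul (PE.c 8) (rhsG tabU [(.c 1, B1)])))) = true := by
  decide +kernel

set_option maxRecDepth 100000 in
lemma tri0 : tri G0 0 = true := by decide +kernel

set_option maxRecDepth 100000 in
lemma tri1 : tri G1 0 = true := by decide +kernel

set_option maxRecDepth 100000 in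
lemma tri2 : tri G2 0 = true := by decide +kernel

set_option maxRecDepth 100000 in
lemma tri3 : tri G3 0 = true := by decide +kernel

lemma hB1 : GoodB B1 := by
  intro B hB
  unfold B1 at hB
  rcases List.mem_cons.1 hB with rfl | hB
  · exact ⟨tri0, fun x => qpos_of_psdF psd0 x⟩
  rcases List.mem_cons.1 hB with rfl | hB
  · exact ⟨tri1, fun x => qpos_of_psdF psd1 x⟩
  rcases List.mem_cons.1 hB with rfl | hB
  · exact ⟨tri2, fun x => qpos_of_psdF psd2 x⟩
  rcases List.mem_cons.1 hB with rfl | hB
  · exact ⟨tri3, fun x => qpos_of_psdF psd3 x⟩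
  · exact absurd hB List.not_mem_nil

/-- **The pointwise inequality of the certificate.** -/
theorem hpos {E : Type*} [NormedAddCommGroup E] [InnerProductSpace ℝ E] {e x N y w : E}
    (he : ‖e‖ = 1) (hx : ‖x‖ = 1) (hN : ‖N‖ = 1) (hy : ‖y‖ = 1) (hw : ‖w‖ = 1)
    (hxN : ⟪x, N⟫ = 0) (hyw : ⟪y, w⟫ = 0) (hs : ⟪x, y⟫ < 1) :
    0 ≤ Vale.Agent.P224.UE.W9 (22351424 / 33554432) (14264344 / 33554432) (-22182064 / 33554432) (0 / 33554432) (3707848 / 33554432) (1866808 / 33554432) (0 / 33554432) (-3834640 / 33554432) (0 / 33554432)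
        (dv x N y w e)
      + hsum 2 (rlH 33554432 rows) (dv x N y w e) :=
  pos_of hs (nonneg_of_chkU 8 (by norm_num) idG idB idM hB1 he hx hN hy hw hxN hyw hs)

end

end Vale.Agent.P224.R2.H614.CA
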